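import Vale.Agent.P032.S5.H12.Fld
import Vale.Agent.P032.Net.H672.DNet

/-!
# P032: the arc fields of the network of two-pair centres

`AA T z v v'`: `v`, `v'` are the two ends of one exact arc of `S(z)`.  The fields `arc_*` of `DNet` for
`EE`, `AA`, `ore`, `inn`.
-/

open Set Filter Topology Metric

noncomputable section

namespace Vale.Agent.P032.Six

section General

variable {k : ℕ} {U : Fin k → Set ℂ} {T : ℂ → Set (Fin k)} {z v v' q : ℂ} {o o' : ℝ}

/-- `v` and `v'` are the two ends of one exact arc of `S(z)` -/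
def AA (T : ℂ → Set (Fin k)) (z v v' : ℂ) : Prop :=
  ∃ o l : ℝ, 0 < l ∧ l ≤ Real.pi / 3 ∧ OEnd T z v o ∧ OEnd T z v' (-o) ∧
    v' = z + (v - z) * cis (-(o * l)) ∧
    ∀ t ∈ Ioo 0 l, T (z + (v - z) * cis (-(o * t))) = T z ∩ T v

theorem OEnd.en813 (h : OEnd T z v o) : En T (T v) z v := by
  obtain ⟨ho, hd, h4, h3, h2, ε, hε, ha⟩ := h
  exact ⟨rfl, h4, h2, hd, o, ε, ho, hε, ha⟩

/-- the two ends of an arc carry the same pair of `T z` -/
theorem AA.pair' (h : AA T z v v') : T z ∩ T v' = T z ∩ T v := by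
  obtain ⟨o, l, hl0, hl, hv, hv', e, harc⟩ := h
  obtain ⟨-, -, -, -, -, ε, hε, ha⟩ := hv'
  have hm : 0 < min ε l := lt_min hε hl0
  set t := min ε l / 2 with ht
  have ht0 : 0 < t := by rw [ht]; linarith
  have htε : t < ε := by have := min_le_left ε l; rw [ht]; linarith
  have htl : t < l := by have := min_le_right ε l; rw [ht]; linarith
  have h1 := ha t ⟨ht0, htε⟩
  have h2 := harc (l - t) ⟨by linarith, by linarith⟩
  rw [← h1, ← h2]
  congr 1
  rw [e, add_sub_cancel_left, mul_assoc, ← cis_add394]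
  congr 3
  ring

theorem AA.pair (h : AA T z v v') : T v' ∩ T z = T v ∩ T z := by
  rw [inter_comm, h.pair', inter_comm]

theorem AA.symm (h : AA T z v v') : AA T z v' v := by
  have hp := h.pair'
  obtain ⟨o, l, hl0, hl, hv, hv', e, harc⟩ := h
  refine ⟨-o, l, hl0, hl, hv', by rwa [neg_neg], ?_, fun t ht => ?_⟩
  · rw [e, add_sub_cancel_left, mul_assoc, ← cis_add394]
    have : -(o * l) + -(-o * l) = 0 := by ring
    rw [this, cis_zero394, mul_one, add_sub_cancel]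
  · rw [hp, ← harc (l - t) ⟨by linarith [ht.2], by linarith [ht.1]⟩]
    congr 1
    rw [e, add_sub_cancel_left, mul_assoc, ← cis_add394]
    congr 3
    ring

theorem AA.ne (h : AA T z v v') : v' ≠ v := by
  obtain ⟨o, l, hl0, hl, hv, -, e, -⟩ := h
  intro hc
  have hn : ‖v - z‖ = 1 := by rw [← dist_eq_norm]; exact hv.2.1
  have hne : v - z ≠ 0 := by intro h0; rw [h0, norm_zero] at hn; exact one_ne_zero hn.symm
  have h1 : (v - z) * cis (-(o * l)) = (v - z) * 1 := by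
    rw [hc] at e; linear_combination -e
  have h2 := mul_left_cancel₀ hne h1
  have h3 := congrArg Complex.im h2
  rw [cis, Complex.exp_ofReal_mul_I_im, Complex.one_im, Real.sin_neg] at h3
  have h4 : 0 < Real.sin l := Real.sin_pos_of_pos_of_lt_pi hl0 (by linarith [Real.pi_gt_three])
  rcases hv.1 with rfl | rfl
  · rw [one_mul] at h3; linarith
  · rw [neg_one_mul, Real.sin_neg] at h3; linarith

/-- a longer arc in the same direction passes the end of the shorter one -/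
theorem AA.len_le {l l' : ℝ} (hv' : OEnd T z v' o') (hl0 : 0 < l)
    (e : v' = z + (v - z) * cis (-(o * l)))
    (harc : ∀ t ∈ Ioo 0 l', T (z + (v - z) * cis (-(o * t))) = T z ∩ T v)
    (hp : (T z ∩ T v).ncard = 2) : l' ≤ l := by
  by_contra hlt
  push Not at hlt
  have h1 := harc l ⟨hl0, hlt⟩
  rw [← e] at h1
  have h2 := hv'.2.2.2.1
  rw [h1, hp] at h2
  norm_num at h2

end General

section Six

variable {U : Fin 6 → Set ℂ} {T : ℂ → Set (Fin 6)} {z v v' v'' q q' : ℂ} {o o' : ℝ}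

theorem ore_mem813 (T : ℂ → Set (Fin 6)) (z v : ℂ) : ore T z v = 1 ∨ ore T z v = -1 := by
  unfold ore
  split_ifs
  · exact Or.inl rfl
  · exact Or.inr rfl

theorem OEnd.ore813 (h : OEnd T z v o) : OEnd T z v (ore T z v) := by
  unfold ore
  split_ifs with h1
  · exact h1
  · rcases h.1 with rfl | rfl
    · exact absurd h h1
    · exact h

theorem AA.end_ (hE : EE T z v) (h : AA T z v v') : EE T z v' := by
  have hp := h.pair'
  obtain ⟨o, l, -, -, -, hv', -, -⟩ := h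
  refine ⟨⟨_, hv'⟩, ?_⟩
  have h1 : T z \ T v' = T z \ T v := by
    rw [← Set.sdiff_self_inter, hp, Set.sdiff_self_inter]
  rw [h1]
  exact hE.2

namespace EE

theorem ore813 (h : EE T z v) : OEnd T z v (ore T z v) := h.1.choose_spec.ore813

theorem en813 (h : EE T z v) : En T (T v) z v := h.ore813.en813

theorem en813' (h : EE T z q) (hq : T q = (T v)ᶜ) : En T (T v)ᶜ z q := by
  have h1 := h.en813
  rwa [hq] at h1

theorem anti813 (h : Irr U T) (hv : EE T z v) (hq : EE T z q) (hc : T q = (T v)ᶜ) :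
    v + q ≠ 2 * z :=
  h.en_anti hv.card_v hv.en813 (hq.en813' hc)

theorem four813 (h : Irr U T) (hv : EE T z v) (hq : EE T z q) (hc : T q = (T v)ᶜ)
    (h4 : (T (v + q - z)).ncard ≤ 4) : (T (v + q - z)).ncard = 4 :=
  h.en_four hv.card_v hv.en813 (hq.en813' hc) h4

/-- the sign of an end is unique -/
theorem sgn (h : Irr U T) (h4 : ∀ x, (T x).ncard ≤ 4) (hv : EE T z v) (hq : EE T z q)
    (hc : T q = (T v)ᶜ) (h1 : OEnd T z v o) (h2 : OEnd T z v o') : o = o' := by
  refine h1.unique h h2 hq.dist hq.card_v.le (fun i => ?_) ?_ (hv.anti813 h hq hc)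
    (hv.four813 h hq hc (h4 _))
  · rw [hc]; exact em _
  · rw [hc]; exact disjoint_compl_right

theorem sgn' (h : Irr U T) (h4 : ∀ x, (T x).ncard ≤ 4) (hv : EE T z v) (hq : EE T z q)
    (hc : T q = (T v)ᶜ) (h1 : OEnd T z v o) : o = ore T z v :=
  hv.sgn h h4 hq hc h1 hv.ore813

theorem arc_ex (h : Irr U T) (h3 : ∀ y, Dist.dist y z = 1 → (T y).ncard ≤ 3) (hv : EE T z v)
    (hq : EE T z q) (hc : T q = (T v)ᶜ) : ∃ v', AA T z v v' := by
  obtain ⟨l, hl0, hl, hE, hp, harc⟩ := OEnd.far h h3 hv.ore813 hq.ore813 (by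
    rw [hc, Set.disjoint_left]
    rintro i ⟨-, h1⟩ h2
    exact h2 h1)
  exact ⟨_, _, l, hl0, hl, hv.ore813, hE, rfl, harc⟩

theorem arc_uniq (h : Irr U T) (h4 : ∀ x, (T x).ncard ≤ 4) (hv : EE T z v) (hq : EE T z q)
    (hc : T q = (T v)ᶜ) (h1 : AA T z v v') (h2 : AA T z v v'') : v' = v'' := by
  obtain ⟨o, l, hl0, hl, hE, hE', e, harc⟩ := h1
  obtain ⟨o', l', hl0', hl', hE1, hE1', e', harc'⟩ := h2
  have ho : o' = o := hv.sgn h h4 hq hc hE1 hE
  subst ho
  have hp := hE.2.2.2.2.1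
  have h5 := AA.len_le hE' hl0 e harc' hp
  have h6 := AA.len_le hE1' hl0' e' harc hp
  rw [e, e', le_antisymm h6 h5]

theorem arc_ori (h : Irr U T) (h4 : ∀ x, (T x).ncard ≤ 4) (hv : EE T z v) (hq : EE T z q)
    (hc : T q = (T v)ᶜ) (hv' : EE T z v') (hq' : EE T z q') (hc' : T q' = (T v')ᶜ)
    (h1 : AA T z v v') : ore T z v' = - ore T z v := by
  obtain ⟨o, l, -, -, hE, hE', -, -⟩ := h1
  rw [← hv.sgn' h h4 hq hc hE, ← hv'.sgn' h h4 hq' hc' hE']

theorem arc_len (h : Irr U T) (h4 : ∀ x, (T x).ncard ≤ 4) (hv : EE T z v) (hq : EE T z q)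
    (hc : T q = (T v)ᶜ) (h1 : AA T z v v') : ∃ l : ℝ, 0 < l ∧ l ≤ Real.pi / 3 ∧
      v' - z = (v - z) * Complex.exp (-((ore T z v * l : ℝ) : ℂ) * Complex.I) := by
  obtain ⟨o, l, hl0, hl, hE, hE', e, -⟩ := h1
  refine ⟨l, hl0, hl, ?_⟩
  rw [← hv.sgn' h h4 hq hc hE, e, add_sub_cancel_left, cis, Complex.ofReal_neg]

/-- the exact points between the two ends -/
theorem arc_between (h : Irr U T) (h4 : ∀ x, (T x).ncard ≤ 4) (hv : EE T z v) (hq : EE T z q)
    (hc : T q = (T v)ᶜ) (h1 : AA T z v v') : ∃ l : ℝ, 0 < l ∧ l ≤ Real.pi / 3 ∧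
      v' = z + (v - z) * cis (-(ore T z v * l)) ∧
      ∀ t ∈ Ioo 0 l, T (z + (v - z) * cis (-(ore T z v * t))) = T z ∩ T v := by
  obtain ⟨o, l, hl0, hl, hE, hE', e, harc⟩ := h1
  refine ⟨l, hl0, hl, ?_, ?_⟩
  · rw [← hv.sgn' h h4 hq hc hE]; exact e
  · rw [← hv.sgn' h h4 hq hc hE]; exact harc

/-- the inner colour is the same at the two ends of an arc -/
theorem arc_inn (h : Irr U T) (hv : EE T z v) (hq : EE T z q) (hc : T q = (T v)ᶜ)
    (h1 : AA T z v v') : inn U T z v' = inn U T z v := by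
  have hv' := h1.end_ hv
  have hp := h1.pair
  have hp' := h1.pair'
  have e1 : T v ∩ T z = T z \ T q := by
    rw [hc]
    ext i
    simp only [mem_inter_iff, Set.mem_sdiff, mem_compl_iff, not_not]
    exact and_comm
  refine ((EE.lp2 h hq hv hv' e1 (hp.trans e1)).2 ?_).symm
  obtain ⟨a, b, c, d, n1, n2⟩ := hv.names
  have hz := hv.dpt h n1 n2
  obtain ⟨o, l, hl0, hl, hE, hE', e, harc⟩ := h1
  have hpt : ∀ t ∈ Icc 0 l, T z ∩ T (z + (v - z) * cis (-(o * t))) = T z ∩ T v := by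
    intro t ht
    rcases eq_or_lt_of_le ht.1 with h5 | h5
    · rw [← h5, mul_zero, neg_zero, cis_zero394, mul_one, add_sub_cancel]
    · rcases eq_or_lt_of_le ht.2 with h6 | h6
      · rw [h6, ← e]; exact hp'
      · rw [harc t ⟨h5, h6⟩, ← inter_assoc, inter_self]
  have ma : a ∈ T z ∩ T v := by rw [n1]; simp
  have mb : b ∈ T z ∩ T v := by rw [n1]; simp
  have mc : c ∈ T z \ T v := by rw [n2]; simp
  have md : d ∈ T z \ T v := by rw [n2]; simp
  have hcq : c ∈ T q := by rw [hc]; exact mc.2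
  have hdq : d ∈ T q := by rw [hc]; exact md.2
  have key : ∀ t ∈ Icc 0 l, cr (q - z) ((v - z) * cis (-(o * t))) ≠ 0 := by
    intro t ht
    have h5 := hpt t ht
    have ta : a ∈ T (z + (v - z) * cis (-(o * t))) := by rw [← h5] at ma; exact ma.2
    have tb : b ∈ T (z + (v - z) * cis (-(o * t))) := by rw [← h5] at mb; exact mb.2
    have tc : q ≠ z + (v - z) * cis (-(o * t)) := by
      intro h6
      have h7 : c ∈ T z ∩ T v := by
        rw [← h5]; exact ⟨mc.1, by rw [← h6]; exact hcq⟩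
      exact mc.2 h7.2
    have h6 := h.cr_ne_zero hz hq.dist (dist_rot hv.dist _) ta tb hcq hdq tc
    rwa [add_sub_cancel_left] at h6
  have hcont : Continuous fun t : ℝ => cr (q - z) ((v - z) * cis (-(o * t))) := by
    have h5 : Continuous fun w : ℂ => cr (q - z) w := by unfold cr; fun_prop
    exact h5.comp (continuous_const.mul (continuous_cis.comp (by fun_prop)))
  by_contra hneg
  have e0 : (v - z) * cis (-(o * 0)) = v - z := by
    rw [mul_zero, neg_zero, cis_zero394, mul_one]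
  have el : (v - z) * cis (-(o * l)) = v' - z := by rw [e, add_sub_cancel_left]
  have h5 : (0 : ℝ) ∈ uIcc (cr (q - z) ((v - z) * cis (-(o * 0))))
      (cr (q - z) ((v - z) * cis (-(o * l)))) := by
    rw [e0, el, Set.mem_uIcc]
    rcases mul_nonpos_iff.1 (not_lt.1 hneg) with ⟨h6, h7⟩ | ⟨h6, h7⟩
    · exact Or.inr ⟨h7, h6⟩
    · exact Or.inl ⟨h6, h7⟩
  obtain ⟨t, ht, ht'⟩ := intermediate_value_uIcc (a := 0) (b := l) hcont.continuousOn h5
  rw [uIcc_of_le hl0.le] at ht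
  exact key t ht ht'

/-! ### the fields of `DNet` -/

open Vale.Agent.P032.Net.H672

theorem fld_ex (h : Irr U T) (hu : ∀ z y, (T z).ncard = 4 → Dist.dist y z = 1 → (T y).ncard ≤ 3) :
    ∀ {z v}, Full T (EE T) z v → ∃ v', AA T z v v' := by
  rintro z v ⟨hv, q, hq, hc⟩
  exact hv.arc_ex h (fun y hy => hu z y hv.card_z hy) hq hc

theorem fld_end : ∀ {z v v'}, Full T (EE T) z v → AA T z v v' → EE T z v' :=
  fun h1 h2 => h2.end_ h1.1

theorem fld_pair : ∀ {z v v'}, Full T (EE T) z v → AA T z v v' → T v' ∩ T z = T v ∩ T z :=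
  fun _ h2 => h2.pair

theorem fld_len (h : Irr U T) (h4 : ∀ x, (T x).ncard ≤ 4) :
    ∀ {z v v'}, Full T (EE T) z v → AA T z v v' → ∃ l : ℝ, 0 < l ∧ l ≤ Real.pi / 3 ∧
      v' - z = (v - z) * Complex.exp (-((ore T z v * l : ℝ) : ℂ) * Complex.I) := by
  rintro z v v' ⟨hv, q, hq, hc⟩ h1
  exact hv.arc_len h h4 hq hc h1

theorem fld_uniq (h : Irr U T) (h4 : ∀ x, (T x).ncard ≤ 4) :
    ∀ {z v v' v''}, Full T (EE T) z v → AA T z v v' → AA T z v v'' → v' = v'' := by
  rintro z v v' v'' ⟨hv, q, hq, hc⟩ h1 h2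
  exact hv.arc_uniq h h4 hq hc h1 h2

theorem fld_symm :
    ∀ {z v v'}, Full T (EE T) z v → Full T (EE T) z v' → AA T z v v' → AA T z v' v :=
  fun _ _ h1 => h1.symm

theorem fld_ori (h : Irr U T) (h4 : ∀ x, (T x).ncard ≤ 4) :
    ∀ {z v v'}, Full T (EE T) z v → Full T (EE T) z v' → AA T z v v' →
      ore T z v' = - ore T z v := by
  rintro z v v' ⟨hv, q, hq, hc⟩ ⟨hv', q', hq', hc'⟩ h1
  exact hv.arc_ori h h4 hq hc hv' hq' hc' h1

theorem fld_inn (h : Irr U T) :
    ∀ {z v v'}, Full T (EE T) z v → Full T (EE T) z v' → AA T z v v' →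
      inn U T z v' = inn U T z v := by
  rintro z v v' ⟨hv, q, hq, hc⟩ - h1
  exact hv.arc_inn h hq hc h1

end EE

end Six

end Vale.Agent.P032.Six
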